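import Vale.Agent.P224.R2.H614.Far2
import Vale.Agent.P224.R2.H758.Geo2
import Vale.Agent.P224.R2.H60.EvenFA

/-!
**Final assembly in dimension two.** The near law and the far range give the sharp volume bound.
-/

namespace Vale.Agent.P224.R2.H614

open MeasureTheory Set Filter Function Module Vale.Agent.P224 Vale.Agent.P224.UE
  Vale.Agent.P224.R2.H758
open Vale.Agent.P224.SM2 hiding ker
open scoped Topology RealInnerProductSpace ENNReal ContDiff Manifold

set_option linter.unusedSectionVars false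

section

variable {V W M : Type*} [NormedAddCommGroup V] [InnerProductSpace ℝ V] [FiniteDimensional ℝ V]
  [NormedAddCommGroup W] [InnerProductSpace ℝ W] [FiniteDimensional ℝ W]
  [TopologicalSpace M] [ChartedSpace V M]
  [MeasurableSpace V] [BorelSpace V] [MeasurableSpace M] [BorelSpace M]
  [IsManifold 𝓘(ℝ, V) ∞ M] [CompactSpace M] [T2Space M] [ConnectedSpace M]
  [MeasurableSpace W] [BorelSpace W]

/-- **Final assembly, dimension two.** `hcase` is the near law: the defect of the two-point
identity absorbs the mean normal term as soon as the mean normal has norm below `7 / 500`. -/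
theorem final2 (hV : finrank ℝ V = 2) (hW : finrank ℝ W = finrank ℝ V + 2)
    {F : M → W} (hF : SphImm V F) (hmin : ∀ x n, IsUnitNormal V F x n → meanCurv V F x n = 0)
    (hng : ¬ ∃ a : W, a ≠ 0 ∧ ∀ x, ⟪F x, a⟫ = 0)
    (hcase : ∀ N : M → W, ContMDiff 𝓘(ℝ, V) 𝓘(ℝ, W) ∞ N → (∀ x, IsUnitNormal V F x (N x)) →
      Injective F → ∀ e : W, (volM V F).real univ • e = ∫ x, N x ∂(volM V F) →
      ‖e‖ < 7 / 500 → (volM V F).real univ ≤ 3141593 / 2000000 * sphereVol 2 →
      6 / 5 * sphereVol 2 ≤ (volM V F).real univ →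
      ∃ B : ℝ → ℝ, IntervalIntegrable B volume 0 1 ∧
        (∀ T ∈ Ioo (0 : ℝ) 1, B T ≤ DM2 V F N T) ∧
        2 * r2 0 * ‖∫ x, N x ∂(volM V F)‖ ^ 2 ≤ ∫ T in (0 : ℝ)..1, B T) :
    ENNReal.ofReal (leastClifford (finrank ℝ V)) ≤ volM V F univ := by
  have hfin : IsFiniteMeasure (volM V F) := isFiniteMeasure_volM hF
  have hS0 : 0 < sphereVol 2 := sphereVol_pos' _
  have hpi := Real.pi_lt_d6
  have hpi0 := Real.pi_pos
  have h2π : evenRatio 1 * sphereVol 2 = 2 * Real.pi ^ 2 := by
    rw [evenRatio_one, sphereVol_two]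
    ring
  have hle : leastClifford (finrank ℝ V) ≤ 2 * Real.pi ^ 2 := by
    rw [hV, ← h2π]
    exact even_bound (k := 1) (by norm_num) le_rfl
  refine ENNReal.ofReal_le_of_le_toReal ?_
  change _ ≤ (volM V F).real univ
  refine hle.trans ?_
  by_cases hinj : Injective F
  swap
  · have h2 := TwoSide.two_le (by omega) hW hF hmin hinj
    rw [hV, sphereVol_two] at h2
    nlinarith
  by_contra hlt
  rw [not_le] at hlt
  have h65 : 6 / 5 * sphereVol 2 ≤ (volM V F).real univ := by
    have h1 := (PM.main_frac (by omega) hW hF hmin hng).1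
    have h2 := ENNReal.toReal_mono (measure_ne_top _ _) h1
    rw [ENNReal.toReal_ofReal (mul_nonneg (by norm_num) (sphereVol_pos' _).le), hV] at h2
    exact h2
  have hA0 : 0 < (volM V F).real univ := by linarith
  have hhi : (volM V F).real univ ≤ 3141593 / 2000000 * sphereVol 2 := by
    rw [sphereVol_two]
    nlinarith
  obtain ⟨N, hNs, hN, htop⟩ := TP.exists_normal_le hW (by omega) hF hinj
  rw [hV] at htop
  obtain ⟨e, he⟩ : ∃ e : W, (volM V F).real univ • e = ∫ x, N x ∂(volM V F) :=
    ⟨((volM V F).real univ)⁻¹ • ∫ x, N x ∂(volM V F), by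
      rw [smul_smul, mul_inv_cancel₀ hA0.ne', one_smul]⟩
  have hfar := far2 hV hW hF hmin hNs hN hinj he htop h65 hhi
  obtain ⟨B, hBi, hB, hBu⟩ := hcase N hNs hN hinj e he hfar hhi h65
  have hlaw := sharp_defect2 hV (by omega) hF hmin hNs hN hinj hBi hB
  have hfin2 : 2 * Real.pi ^ 2 * (volM V F).real univ
      ≤ (volM V F).real univ * (volM V F).real univ := by nlinarith
  have := le_of_mul_le_mul_right hfin2 hA0
  linarith

end

end Vale.Agent.P224.R2.H614
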