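import Vale.Agent.P224.R2.H614.LvU
import Vale.Agent.P224.R2.H614.CA.Id
import Vale.Agent.P224.R2.H614.CB.Id
import Vale.Agent.P224.R2.H614.CC.Id

/-!
**The far range in dimension two.** The mean normal of a closed minimal surface of area less than
that of the Clifford torus has norm less than `7 / 500`.
-/

namespace Vale.Agent.P224.R2.H614

open MeasureTheory Set Filter Function Module Vale.Agent.P224 Vale.Agent.P224.UE
  Vale.Agent.P224.POS Vale.Agent.P224.PO Vale.Agent.P224.R2.H178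
open Vale.Agent.P224.SM2 hiding ker
open scoped Topology RealInnerProductSpace ENNReal ContDiff Manifold

set_option linter.unusedSectionVars false

noncomputable section

/-! ### The value of the rows -/

set_option maxRecDepth 100000 in
lemma chkA : chk [] (PE.sub (lvU 2 CA.rows) (qL (-52363560) 41052816 (-8284632))) = true := by
  decide +kernel

set_option maxRecDepth 100000 in
lemma chkB : chk [] (PE.sub (lvU 2 CB.rows) (qL (-64130128) 55629480 (-1742648))) = true := by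
  decide +kernel

set_option maxRecDepth 100000 in
lemma chkC : chk [] (PE.sub (lvU 2 CC.rows) (qL (-808956928) 261076152 (-22990928))) = true := by
  decide +kernel

/-! ### The numerical laws -/

/-- a polynomial of degree one in `ρ` on `[ν ^ 2, 1]` -/
lemma lin_neg {a c ν ρ : ℝ} (h1 : ν ^ 2 ≤ ρ) (h2 : ρ ≤ 1) (h3 : a + c * ν ^ 2 < 0)
    (h4 : a + c < 0) : a + c * ρ < 0 := by
  rcases le_total 0 c with hc | hc
  · have := mul_le_mul_of_nonneg_left h2 hc
    linarith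
  · have := mul_le_mul_of_nonpos_left h1 hc
    linarith

/-- the law of the first certificate is violated on `[1 / 20, 1 / 4]` -/
lemma law_A {Θ ν ρ H : ℝ} (hΘ : Θ ≤ 3141593 / 2000000) (h3 : 1 / 20 ≤ ν)
    (h4 : ν ≤ 1 / 4) (h5 : ν ^ 2 ≤ ρ) (h6 : ρ ≤ 1)
    (hH : H = (-52363560 + 41052816 * ν + -8284632 * ρ) / (3 * 33554432)) :
    Θ * (22351424 / 33554432 + -22182064 / 33554432 * ν + 14264344 / 33554432 * ν ^ 2
      + (3707848 / 33554432 + -3834640 / 33554432 * ν) * ρ + 1866808 / 33554432 * ν ^ 2)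
      + 2 * H < 0 := by
  have hρ0 : 0 ≤ ρ := (sq_nonneg ν).trans h5
  have hB : 0 ≤ 22351424 / 33554432 + -22182064 / 33554432 * ν + 14264344 / 33554432 * ν ^ 2
      + (3707848 / 33554432 + -3834640 / 33554432 * ν) * ρ + 1866808 / 33554432 * ν ^ 2 := by
    have h7 : 0 ≤ (3707848 / 33554432 + -3834640 / 33554432 * ν) * ρ :=
      mul_nonneg (by linarith) hρ0
    nlinarith [sq_nonneg ν]
  have h8 := mul_le_mul_of_nonneg_right hΘ hB
  have hν2 : ν ^ 2 ≤ 3 / 10 * ν - 1 / 80 := by nlinarith [mul_nonneg (sub_nonneg.2 h3) (sub_nonneg.2 h4)]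
  have key := lin_neg (a := 3141593 / 2000000 * (22351424 / 33554432 + -22182064 / 33554432 * ν
      + 14264344 / 33554432 * ν ^ 2 + 1866808 / 33554432 * ν ^ 2)
      + 2 * ((-52363560 + 41052816 * ν) / (3 * 33554432)))
    (c := 3141593 / 2000000 * (3707848 / 33554432 + -3834640 / 33554432 * ν)
      + 2 * (-8284632 / (3 * 33554432))) h5 h6
    (by nlinarith [mul_nonneg (sub_nonneg.2 h3) (sub_nonneg.2 h4),
      mul_nonneg (mul_nonneg (sub_nonneg.2 h3) (sub_nonneg.2 h4)) (by linarith : (0 : ℝ) ≤ ν)])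
    (by nlinarith)
  rw [hH]
  nlinarith

/-- the law of the third certificate is violated on `[7 / 500, 1 / 20]` -/
lemma law_C {Θ ν ρ H : ℝ} (hΘ : Θ ≤ 3141593 / 2000000) (h3 : 7 / 500 ≤ ν)
    (h4 : ν ≤ 1 / 20) (h5 : ν ^ 2 ≤ ρ) (h6 : ρ ≤ 1)
    (hH : H = (-808956928 + 261076152 * ν + -22990928 * ρ) / (3 * 536870912)) :
    Θ * (343800016 / 536870912 + -156068520 / 536870912 * ν + 222774216 / 536870912 * ν ^ 2
      + (9699808 / 536870912 + 4132112 / 536870912 * ν) * ρ + 8629968 / 536870912 * ν ^ 2)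
      + 2 * H < 0 := by
  have hρ0 : 0 ≤ ρ := (sq_nonneg ν).trans h5
  have hB : 0 ≤ 343800016 / 536870912 + -156068520 / 536870912 * ν
      + 222774216 / 536870912 * ν ^ 2
      + (9699808 / 536870912 + 4132112 / 536870912 * ν) * ρ + 8629968 / 536870912 * ν ^ 2 := by
    have h7 : 0 ≤ (9699808 / 536870912 + 4132112 / 536870912 * ν) * ρ :=
      mul_nonneg (by linarith) hρ0
    nlinarith [sq_nonneg ν]
  have h8 := mul_le_mul_of_nonneg_right hΘ hB
  have hν2 : ν ^ 2 ≤ 8 / 125 * ν - 7 / 10000 := by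
    nlinarith [mul_nonneg (sub_nonneg.2 h3) (sub_nonneg.2 h4)]
  have key := lin_neg (a := 3141593 / 2000000 * (343800016 / 536870912
      + -156068520 / 536870912 * ν + 222774216 / 536870912 * ν ^ 2 + 8629968 / 536870912 * ν ^ 2)
      + 2 * ((-808956928 + 261076152 * ν) / (3 * 536870912)))
    (c := 3141593 / 2000000 * (9699808 / 536870912 + 4132112 / 536870912 * ν)
      + 2 * (-22990928 / (3 * 536870912))) h5 h6
    (by nlinarith [mul_nonneg (sub_nonneg.2 h3) (sub_nonneg.2 h4),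
      mul_nonneg (mul_nonneg (sub_nonneg.2 h3) (sub_nonneg.2 h4)) (by linarith : (0 : ℝ) ≤ ν)])
    (by nlinarith)
  rw [hH]
  nlinarith

/-- the law of the second certificate is violated on `[1 / 4, 13 / 20]` -/
lemma law_B1 {Θ ν ρ H : ℝ} (hΘ : Θ ≤ 3141593 / 2000000) (h3 : 1 / 4 ≤ ν)
    (h4 : ν ≤ 13 / 20) (h5 : ν ^ 2 ≤ ρ) (h6 : ρ ≤ 1)
    (hH : H = (-64130128 + 55629480 * ν + -1742648 * ρ) / (3 * 33554432)) :
    Θ * (29143600 / 33554432 + -36173728 / 33554432 * ν + 14624304 / 33554432 * ν ^ 2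
      + (1044544 / 33554432 + -1219776 / 33554432 * ν) * ρ + 9688 / 33554432 * ν ^ 2)
      + 2 * H < 0 := by
  have hρ0 : 0 ≤ ρ := (sq_nonneg ν).trans h5
  have hB : 0 ≤ 29143600 / 33554432 + -36173728 / 33554432 * ν + 14624304 / 33554432 * ν ^ 2
      + (1044544 / 33554432 + -1219776 / 33554432 * ν) * ρ + 9688 / 33554432 * ν ^ 2 := by
    have h7 : 0 ≤ (1044544 / 33554432 + -1219776 / 33554432 * ν) * ρ :=
      mul_nonneg (by linarith) hρ0
    nlinarith [sq_nonneg (ν - 1)]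
  have h8 := mul_le_mul_of_nonneg_right hΘ hB
  have hab := mul_nonneg (sub_nonneg.2 h3) (sub_nonneg.2 h4)
  have key := lin_neg (a := 3141593 / 2000000 * (29143600 / 33554432 + -36173728 / 33554432 * ν
      + 14624304 / 33554432 * ν ^ 2 + 9688 / 33554432 * ν ^ 2)
      + 2 * ((-64130128 + 55629480 * ν) / (3 * 33554432)))
    (c := 3141593 / 2000000 * (1044544 / 33554432 + -1219776 / 33554432 * ν)
      + 2 * (-1742648 / (3 * 33554432))) h5 h6
    (by nlinarith [hab, mul_nonneg hab (by linarith : (0 : ℝ) ≤ ν)])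
    (by nlinarith [hab])
  rw [hH]
  nlinarith

/-- the law of the second certificate is violated on `[13 / 20, 7 / 10]` -/
lemma law_B2 {Θ ν ρ H : ℝ} (hΘ : Θ ≤ 20 / 13) (h3 : 13 / 20 ≤ ν)
    (h4 : ν ≤ 7 / 10) (h5 : ν ^ 2 ≤ ρ) (h6 : ρ ≤ 1)
    (hH : H = (-64130128 + 55629480 * ν + -1742648 * ρ) / (3 * 33554432)) :
    Θ * (29143600 / 33554432 + -36173728 / 33554432 * ν + 14624304 / 33554432 * ν ^ 2
      + (1044544 / 33554432 + -1219776 / 33554432 * ν) * ρ + 9688 / 33554432 * ν ^ 2)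
      + 2 * H < 0 := by
  have hρ0 : 0 ≤ ρ := (sq_nonneg ν).trans h5
  have hB : 0 ≤ 29143600 / 33554432 + -36173728 / 33554432 * ν + 14624304 / 33554432 * ν ^ 2
      + (1044544 / 33554432 + -1219776 / 33554432 * ν) * ρ + 9688 / 33554432 * ν ^ 2 := by
    have h7 : 0 ≤ (1044544 / 33554432 + -1219776 / 33554432 * ν) * ρ :=
      mul_nonneg (by linarith) hρ0
    nlinarith [sq_nonneg (ν - 1)]
  have h8 := mul_le_mul_of_nonneg_right hΘ hB
  have hab := mul_nonneg (sub_nonneg.2 h3) (sub_nonneg.2 h4)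
  have key := lin_neg (a := 20 / 13 * (29143600 / 33554432 + -36173728 / 33554432 * ν
      + 14624304 / 33554432 * ν ^ 2 + 9688 / 33554432 * ν ^ 2)
      + 2 * ((-64130128 + 55629480 * ν) / (3 * 33554432)))
    (c := 20 / 13 * (1044544 / 33554432 + -1219776 / 33554432 * ν)
      + 2 * (-1742648 / (3 * 33554432))) h5 h6
    (by nlinarith [hab, mul_nonneg hab (by linarith : (0 : ℝ) ≤ ν)])
    (by nlinarith [hab])
  rw [hH]
  nlinarith

/-- the law of the second certificate is violated on `[7 / 10, 19 / 25]` -/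
lemma law_B3 {Θ ν ρ H : ℝ} (hΘ : Θ ≤ 10 / 7) (h3 : 7 / 10 ≤ ν)
    (h4 : ν ≤ 19 / 25) (h5 : ν ^ 2 ≤ ρ) (h6 : ρ ≤ 1)
    (hH : H = (-64130128 + 55629480 * ν + -1742648 * ρ) / (3 * 33554432)) :
    Θ * (29143600 / 33554432 + -36173728 / 33554432 * ν + 14624304 / 33554432 * ν ^ 2
      + (1044544 / 33554432 + -1219776 / 33554432 * ν) * ρ + 9688 / 33554432 * ν ^ 2)
      + 2 * H < 0 := by
  have hρ0 : 0 ≤ ρ := (sq_nonneg ν).trans h5
  have hB : 0 ≤ 29143600 / 33554432 + -36173728 / 33554432 * ν + 14624304 / 33554432 * ν ^ 2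
      + (1044544 / 33554432 + -1219776 / 33554432 * ν) * ρ + 9688 / 33554432 * ν ^ 2 := by
    have h7 : 0 ≤ (1044544 / 33554432 + -1219776 / 33554432 * ν) * ρ :=
      mul_nonneg (by linarith) hρ0
    nlinarith [sq_nonneg (ν - 1)]
  have h8 := mul_le_mul_of_nonneg_right hΘ hB
  have hab := mul_nonneg (sub_nonneg.2 h3) (sub_nonneg.2 h4)
  have key := lin_neg (a := 10 / 7 * (29143600 / 33554432 + -36173728 / 33554432 * ν
      + 14624304 / 33554432 * ν ^ 2 + 9688 / 33554432 * ν ^ 2)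
      + 2 * ((-64130128 + 55629480 * ν) / (3 * 33554432)))
    (c := 10 / 7 * (1044544 / 33554432 + -1219776 / 33554432 * ν)
      + 2 * (-1742648 / (3 * 33554432))) h5 h6
    (by nlinarith [hab, mul_nonneg hab (by linarith : (0 : ℝ) ≤ ν)])
    (by nlinarith [hab])
  rw [hH]
  nlinarith

/-- the law of the second certificate is violated on `[19 / 25, 5 / 6]` -/
lemma law_B4 {Θ ν ρ H : ℝ} (hΘ : Θ ≤ 25 / 19) (h3 : 19 / 25 ≤ ν)
    (h4 : ν ≤ 5 / 6) (h5 : ν ^ 2 ≤ ρ) (h6 : ρ ≤ 1)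
    (hH : H = (-64130128 + 55629480 * ν + -1742648 * ρ) / (3 * 33554432)) :
    Θ * (29143600 / 33554432 + -36173728 / 33554432 * ν + 14624304 / 33554432 * ν ^ 2
      + (1044544 / 33554432 + -1219776 / 33554432 * ν) * ρ + 9688 / 33554432 * ν ^ 2)
      + 2 * H < 0 := by
  have hρ0 : 0 ≤ ρ := (sq_nonneg ν).trans h5
  have hB : 0 ≤ 29143600 / 33554432 + -36173728 / 33554432 * ν + 14624304 / 33554432 * ν ^ 2
      + (1044544 / 33554432 + -1219776 / 33554432 * ν) * ρ + 9688 / 33554432 * ν ^ 2 := by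
    have h7 : 0 ≤ (1044544 / 33554432 + -1219776 / 33554432 * ν) * ρ :=
      mul_nonneg (by linarith) hρ0
    nlinarith [sq_nonneg (ν - 1)]
  have h8 := mul_le_mul_of_nonneg_right hΘ hB
  have hab := mul_nonneg (sub_nonneg.2 h3) (sub_nonneg.2 h4)
  have key := lin_neg (a := 25 / 19 * (29143600 / 33554432 + -36173728 / 33554432 * ν
      + 14624304 / 33554432 * ν ^ 2 + 9688 / 33554432 * ν ^ 2)
      + 2 * ((-64130128 + 55629480 * ν) / (3 * 33554432)))
    (c := 25 / 19 * (1044544 / 33554432 + -1219776 / 33554432 * ν)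
      + 2 * (-1742648 / (3 * 33554432))) h5 h6
    (by nlinarith [hab, mul_nonneg hab (by linarith : (0 : ℝ) ≤ ν)])
    (by nlinarith [hab])
  rw [hH]
  nlinarith

/-- the law of the second certificate is violated on `[1 / 4, 5 / 6]` -/
lemma law_B {Θ ν ρ H : ℝ} (hΘ : Θ ≤ 3141593 / 2000000) (hΘν : Θ * ν ≤ 1)
    (h3 : 1 / 4 ≤ ν) (h4 : ν ≤ 5 / 6) (h5 : ν ^ 2 ≤ ρ) (h6 : ρ ≤ 1)
    (hH : H = (-64130128 + 55629480 * ν + -1742648 * ρ) / (3 * 33554432)) :
    Θ * (29143600 / 33554432 + -36173728 / 33554432 * ν + 14624304 / 33554432 * ν ^ 2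
      + (1044544 / 33554432 + -1219776 / 33554432 * ν) * ρ + 9688 / 33554432 * ν ^ 2)
      + 2 * H < 0 := by
  have hc : ∀ c : ℝ, 0 < c → c ≤ ν → Θ ≤ 1 / c := by
    intro c hc hcν
    rw [le_div_iff₀ hc]
    rcases le_total 0 Θ with h0 | h0
    · exact (mul_le_mul_of_nonneg_left hcν h0).trans hΘν
    · have := mul_nonpos_of_nonpos_of_nonneg h0 hc.le
      linarith
  rcases le_total ν (13 / 20) with h | h
  · exact law_B1 hΘ h3 h h5 h6 hH
  rcases le_total ν (7 / 10) with h' | h'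
  · exact law_B2 ((hc _ (by norm_num) h).trans (by norm_num)) h h' h5 h6 hH
  rcases le_total ν (19 / 25) with h'' | h''
  · exact law_B3 ((hc _ (by norm_num) h').trans (by norm_num)) h' h'' h5 h6 hH
  · exact law_B4 ((hc _ (by norm_num) h'').trans (by norm_num)) h'' h4 h5 h6 hH

/-! ### The far range -/

section

variable {V W M : Type*} [NormedAddCommGroup V] [InnerProductSpace ℝ V] [FiniteDimensional ℝ V]
  [NormedAddCommGroup W] [InnerProductSpace ℝ W] [FiniteDimensional ℝ W]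
  [TopologicalSpace M] [ChartedSpace V M]
  [MeasurableSpace V] [BorelSpace V] [MeasurableSpace M] [BorelSpace M]
  [IsManifold 𝓘(ℝ, V) ∞ M] [CompactSpace M] [T2Space M] [ConnectedSpace M]
  [MeasurableSpace W] [BorelSpace W]

/-- **The far range in dimension two.** -/
theorem far2 (hV : finrank ℝ V = 2) (hW : finrank ℝ W = finrank ℝ V + 2)
    {F : M → W} (hF : SphImm V F) (hmin : ∀ x n, IsUnitNormal V F x n → meanCurv V F x n = 0)
    {N : M → W} (hNs : ContMDiff 𝓘(ℝ, V) 𝓘(ℝ, W) ∞ N) (hN : ∀ x, IsUnitNormal V F x (N x))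
    (hinj : Injective F) {e : W}
    (he : (volM V F).real univ • e = ∫ x, N x ∂(volM V F))
    (htop : ‖∫ x, N x ∂(volM V F)‖ ≤ sphereVol 2)
    (hlo : 6 / 5 * sphereVol 2 ≤ (volM V F).real univ)
    (hhi : (volM V F).real univ ≤ 3141593 / 2000000 * sphereVol 2) : ‖e‖ < 7 / 500 := by
  by_contra hcon
  rw [not_lt] at hcon
  have hfin : IsFiniteMeasure (volM V F) := isFiniteMeasure_volM hF
  have hS0 : 0 < sphereVol 2 := sphereVol_pos' _
  have hA0 : 0 < (volM V F).real univ := by linarith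
  have he0 : e ≠ 0 := by
    rintro rfl
    rw [norm_zero] at hcon
    linarith
  have hn : ‖∫ x, N x ∂(volM V F)‖ = (volM V F).real univ * ‖e‖ := by
    rw [← he, norm_smul, Real.norm_eq_abs, abs_of_pos hA0]
  rw [hn] at htop
  obtain ⟨B, hE⟩ := embD_of_inj (by omega) hW hF hmin hNs hN hinj
  rw [hV] at hE
  have hne : Nonempty M := inferInstance
  set Θ := (volM V F).real univ / sphereVol 2 with hΘ
  have hT1 : Θ ≤ 3141593 / 2000000 := by
    rw [hΘ, div_le_iff₀ hS0]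
    exact hhi
  have hT0 : 6 / 5 ≤ Θ := by
    rw [hΘ, le_div_iff₀ hS0]
    exact hlo
  have hTν : Θ * ‖e‖ ≤ 1 := by
    rw [hΘ, div_mul_eq_mul_div, div_le_iff₀ hS0, one_mul]
    exact htop
  have hν : ‖e‖ ≤ 5 / 6 := by
    by_contra h
    rw [not_le] at h
    have h1 : 6 / 5 * (5 / 6) < Θ * ‖e‖ :=
      mul_lt_mul' hT0 h (by norm_num) (by linarith)
    norm_num at h1
    linarith
  rcases le_total ‖e‖ (1 / 20) with hc | hc
  · obtain ⟨ρ, h1, h2, h3⟩ := lawN hE le_rfl hS0 he0 he hA0 CC.rows_ok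
      (fun v x N y w hv hx hN hy hw hxN hyw hs => CC.hpos hv hx hN hy hw hxN hyw hs)
    rw [← hΘ, KH_two] at h3
    have h4 := law_C hT1 hcon hc h1 h2 rfl
    rw [hvalU_lin (by norm_num) chkC] at h3
    push_cast at h3
    norm_num at h3 h4
    linarith
  rcases le_total ‖e‖ (1 / 4) with hc' | hc'
  · obtain ⟨ρ, h1, h2, h3⟩ := lawN hE le_rfl hS0 he0 he hA0 CA.rows_ok
      (fun v x N y w hv hx hN hy hw hxN hyw hs => CA.hpos hv hx hN hy hw hxN hyw hs)
    rw [← hΘ, KH_two] at h3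
    have h4 := law_A hT1 hc hc' h1 h2 rfl
    rw [hvalU_lin (by norm_num) chkA] at h3
    push_cast at h3
    norm_num at h3 h4
    linarith
  · obtain ⟨ρ, h1, h2, h3⟩ := lawN hE le_rfl hS0 he0 he hA0 CB.rows_ok
      (fun v x N y w hv hx hN hy hw hxN hyw hs => CB.hpos hv hx hN hy hw hxN hyw hs)
    rw [← hΘ, KH_two] at h3
    have h4 := law_B hT1 hTν hc' hν h1 h2 rfl
    rw [hvalU_lin (by norm_num) chkB] at h3
    push_cast at h3
    norm_num at h3 h4
    linarith

end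

end

end Vale.Agent.P224.R2.H614
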