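import Vale.Agent.P224.R2.H178.LawU
import Vale.Agent.P224.POS.LvM
import Vale.Agent.P224.PO.RowsO

/-!
The value of the rows of a static certificate with a unit vector, verified by the kernel, and the
law in the normalized volume.
-/

namespace Vale.Agent.P224.R2.H614

open MeasureTheory Set Filter Function Module
open Vale.Agent.P224.UE Vale.Agent.P224.POS Vale.Agent.P224.PO Vale.Agent.P224.R2.H178
open scoped RealInnerProductSpace

noncomputable section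

/-- the moments times `m + 1`, in the variables `ν`, `ρ` -/
def momPU (m : Nat) (a b : Nat) : PE :=
  match a, b with
  | 0, 0 => PE.c (m + 1)
  | 1, 0 => PE.mul (PE.c (m + 1)) (PE.v 0)
  | 2, 0 => PE.mul (PE.c (m + 1)) (PE.v 1)
  | 0, 2 => PE.sub (PE.c 1) (PE.v 1)
  | _, _ => PE.c 0

lemma ev_momPU (f : ℕ → ℝ) (m a b : ℕ) :
    PE.ev f (momPU m a b) = (m + 1) * momU m (f 0) (f 1) a b := by
  have hm : (m : ℝ) + 1 ≠ 0 := by positivity
  unfold momPU momU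
  rcases a with _ | _ | _ | a <;> rcases b with _ | _ | _ | b <;>
    simp only [PE.ev_c, PE.ev_mul, PE.ev_sub, PE.ev_v] <;> push_cast <;>
    first | ring1 | field_simp

/-- `m + 1` times the value of a term -/
def tvU (m : Nat) (T : HTerm) : PE :=
  Bool.rec (motive := fun _ => PE)
    (PE.mul (Bool.rec (motive := fun _ => PE) (PE.c (-1)) (PE.c 1) (decide (T.fam = 0)))
      (momPU m T.kn T.kx))
    (PE.c 0) (T.sub m)

lemma ev_tvU (f : ℕ → ℝ) (m : ℕ) (T : HTerm) :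
    PE.ev f (tvU m T) = (m + 1) * VU m T (f 0) (f 1) := by
  unfold tvU VU
  cases h : T.sub m with
  | true => simp
  | false =>
    simp only [Bool.false_eq_true, if_false]
    by_cases hf : T.fam = 0
    · simp only [hf, decide_true, if_true]
      rw [PE.ev_mul, PE.ev_c, ev_momPU]
      push_cast
      ring
    · simp only [hf, decide_false, if_false]
      rw [PE.ev_mul, PE.ev_c, ev_momPU]
      push_cast
      ring

/-- `m + 1` times the value of the list -/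
def lvU (m : Nat) (l : List (Int × HTerm)) : PE :=
  List.rec (motive := fun _ => PE) (PE.c 0)
    (fun cT _ ih => PE.add (PE.mul (PE.c cT.1) (tvU m cT.2)) ih) l

lemma ev_lvU (f : ℕ → ℝ) (m : ℕ) {D : Int} (hD : D ≠ 0) (l : List (Int × HTerm)) :
    PE.ev f (lvU m l) = (m + 1) * D * hvalU m (rlH D l) (f 0) (f 1) := by
  have hD' : (D : ℝ) ≠ 0 := by exact_mod_cast hD
  induction l with
  | nil => simp [lvU, hvalU, rlH]
  | cons cT l ih =>
    have e1 : lvU m (cT :: l) = PE.add (PE.mul (PE.c cT.1) (tvU m cT.2)) (lvU m l) := rfl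
    rw [e1, PE.ev_add, PE.ev_mul, PE.ev_c, ev_tvU, ih]
    simp only [hvalU, rlH, List.map_cons, List.sum_cons]
    field_simp

/-- The value of a list in closed form, verified by the kernel. -/
theorem hvalU_eq {m : ℕ} {D : Int} (hD : D ≠ 0) {l : List (Int × HTerm)} {q : PE}
    (h : chk [] (PE.sub (lvU m l) q) = true) (ν ρ : ℝ) :
    hvalU m (rlH D l) ν ρ
      = PE.ev (fun i => ([ν, ρ] : List ℝ).getD i 0) q / ((m + 1) * D) := by
  have hD' : (D : ℝ) ≠ 0 := by exact_mod_cast hD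
  have hm : (m : ℝ) + 1 ≠ 0 := by positivity
  have h1 := ev_eq_of_chk h (fun i => ([ν, ρ] : List ℝ).getD i 0) (fun i hi =>
    List.getD_eq_default _ _ (by simp at hi ⊢; omega))
  rw [← h1, ev_lvU _ m hD]
  have e0 : ([ν, ρ] : List ℝ).getD 0 0 = ν := rfl
  have e1 : ([ν, ρ] : List ℝ).getD 1 0 = ρ := rfl
  rw [e0, e1]
  field_simp

/-- the linear value -/
def qL (a b c : Int) : PE :=
  PE.add (PE.add (PE.c a) (PE.mul (PE.c b) (PE.v 0))) (PE.mul (PE.c c) (PE.v 1))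

theorem hvalU_lin {m : ℕ} {D : Int} (hD : D ≠ 0) {l : List (Int × HTerm)} {a b c : Int}
    (h : chk [] (PE.sub (lvU m l) (qL a b c)) = true) (ν ρ : ℝ) :
    hvalU m (rlH D l) ν ρ = (a + b * ν + c * ρ) / ((m + 1) * D) := by
  rw [hvalU_eq hD h]
  unfold qL
  simp only [PE.ev_add, PE.ev_mul, PE.ev_c, PE.ev_v]
  have e0 : ([ν, ρ] : List ℝ).getD 0 0 = ν := rfl
  have e1 : ([ν, ρ] : List ℝ).getD 1 0 = ρ := rfl
  rw [e0, e1]

/-- **The law of a certificate with a unit vector**, in the normalized volume. -/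
theorem lawN {X : Type*} [MeasurableSpace X] [Nonempty X] {E : Type*} [NormedAddCommGroup E]
    [InnerProductSpace ℝ E] [FiniteDimensional ℝ E] [MeasurableSpace E] [BorelSpace E]
    {μ : Measure X} [IsFiniteMeasure μ] {F N : X → E} {B S : ℝ} {m : ℕ}
    (hE : EmbD μ m F N B S) (hm2 : 2 ≤ m) (hS : 0 < S) {e : E} (he0 : e ≠ 0)
    (he : μ.real univ • e = ∫ x, N x ∂μ) (hA0 : 0 < μ.real univ)
    {b0 b1 b2 b3 b4 b5 b6 b7 b8 : ℝ} {l : List (ℝ × HTerm)}
    (hl : ∀ cT ∈ l, cT.2.ok m = true)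
    (hpos : ∀ v x N y w : E, ‖v‖ = 1 → ‖x‖ = 1 → ‖N‖ = 1 → ‖y‖ = 1 → ‖w‖ = 1 → ⟪x, N⟫ = 0 →
      ⟪y, w⟫ = 0 → ⟪x, y⟫ < 1 → 0 ≤ W9 b0 b1 b2 b3 b4 b5 b6 b7 b8 (dv x N y w v)
        + hsum m l (dv x N y w v)) :
    ∃ ρ : ℝ, ‖e‖ ^ 2 ≤ ρ ∧ ρ ≤ 1 ∧
      0 ≤ μ.real univ / S * (b0 + b3 + b2 * ‖e‖ + b1 * ‖e‖ ^ 2 + (b4 + b7 * ‖e‖) * ρ
          + (b5 + b6) * ‖e‖ ^ 2 + b8 * ((1 - ρ) / (m + 1))) + KH m * hvalU m l ‖e‖ ρ := by
  have hν : 0 < ‖e‖ := norm_pos_iff.2 he0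
  have hv : ‖(‖e‖⁻¹ • e)‖ = 1 := by
    rw [norm_smul, norm_inv, norm_norm, inv_mul_cancel₀ hν.ne']
  have he' : (μ.real univ * ‖e‖) • (‖e‖⁻¹ • e) = ∫ x, N x ∂μ := by
    rw [smul_smul, mul_assoc, mul_inv_cancel₀ hν.ne', mul_one, he]
  obtain ⟨ρ, h1, h2, h3⟩ := lawU hE hm2 hv hν he' hA0 (R := fun _ => 0) continuous_const hl
    (fun x N y w hx hN hy hw hxN hyw hs => by
      rw [sub_zero]
      exact hpos _ x N y w hv hx hN hy hw hxN hyw hs)
  refine ⟨ρ, h1, h2, ?_⟩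
  rw [integral_zero] at h3
  have h4 := nonneg_of_mul_nonneg_right h3 hA0
  have h5 := div_nonneg h4 hS.le
  refine h5.trans (le_of_eq ?_)
  field_simp

end

end Vale.Agent.P224.R2.H614
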